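import Vale.Agent.P207.N4.Dim
import Vale.Agent.P207.N5.H340.Lnk
import Vale.Agent.P207.N5.H547.AffLemC
import Vale.Agent.P207.N5.H790.AqB

/-!
# P207, line N5, row S-INV: uniform bounds of the families on the close pairs
-/

open Set Filter Topology Metric MeasureTheory
open scoped ContDiff

noncomputable section

namespace Vale.Agent.P207.N4.V.H340

open Vale.Agent.P207.N3 Vale.Agent.P207.N4.H709

variable [Dim]

variable {Γ X B : Type} [Group Γ] [MetricSpace X] [ProperSpace X] [MulAction Γ X]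
  [IsIsometricSMul Γ X] [TopologicalSpace B] [CompactSpace B] [T2Space B] [MulAction Γ B]
  [ContinuousConstSMul Γ B] {L : Leaf Γ X B} [MeasurableSpace B] [BorelSpace B] {V : Type}
  [NormedAddCommGroup V] [NormedSpace ℝ V] [FiniteDimensional ℝ V] (P : Pic L V)

/-! ### the diagonal and the invariance -/

theorem SA_em (x : X) {q : E2} (h : (x, q) ∈ P.Af.dT) : ((x, L.em x), q) ∈ SA P := by
  have hu : P.dsc x q ∈ ball (0 : E2) 3 := P.Af.dsc_mem h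
  refine ⟨h, L.em_ne_ep x, hu, ?_, (P.nupos x _ hu).ne'⟩
  show P.Bu.en x (L.em x) (P.dsc x q) ∈ L.e (L.hol (L.em x) x) '' ball (0 : E2) 3
  rw [L.hol_self, P.Bu.en_em x _ hu]
  exact mem_image_of_mem _ hu

variable {P}

theorem Aq_em (x : X) {q : E2} (h : (x, q) ∈ P.Af.dT) : P.Aq x (L.em x) q = q := by
  show P.Af.ch (L.hol (L.em x) x) (P.Th x (L.em x) q) = q
  rw [L.hol_self, P.Th_em x h, P.Af.ch_pt]

theorem fderiv_Aq_em (x : X) {q : E2} (h : (x, q) ∈ P.Af.dT) :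
    fderiv ℝ (P.Aq x (L.em x)) q = ContinuousLinearMap.id ℝ E2 := by
  have h1 : P.Aq x (L.em x) =ᶠ[𝓝 q] id := by
    filter_upwards [(isOpen_slice P.Af.isOpen_dT x).mem_nhds h] with w hw using Aq_em x hw
  rw [h1.fderiv_eq, fderiv_id]

theorem SA_smul (g : Γ) {x : X} {ξ : B} {q : E2} (h : ((x, ξ), q) ∈ SA P) :
    ((g • x, g • ξ), q) ∈ SA P := by
  obtain ⟨h1, h2, h3, h4, h5⟩ := h
  have e1 : P.dsc (g • x) q = P.dsc x q := P.Af.dsc_smul g h1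
  have h3' : P.dsc x q ∈ ball (0 : E2) 3 := h3
  refine ⟨P.Af.dT_smul g h1, ?_, ?_, ?_, ?_⟩
  · show g • ξ ≠ L.ep (g • x)
    rw [H790.ep_smul]
    exact fun h => h2 (MulAction.injective g h)
  · show P.dsc (g • x) q ∈ ball (0 : E2) 3
    rw [e1]
    exact h3
  · show P.Bu.en (g • x) (g • ξ) (P.dsc (g • x) q) ∈ L.e (L.hol (g • ξ) (g • x)) '' ball (0 : E2) 3
    rw [e1, P.Bu.en_smul g x ξ _ h3', L.hol_smul g ξ x h2]
    obtain ⟨v, hv, hv'⟩ := h4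
    refine ⟨v, hv, ?_⟩
    rw [L.e_smul g _ v (ball_subset_closedBall hv)]
    exact congrArg _ hv'
  · show P.Bu.nu (g • x) (g • ξ) (P.dsc (g • x) q) ≠ 0
    rw [e1, P.Bu.nu_smul g x ξ _ h3']
    exact h5

theorem Aq_smul (g : Γ) {x : X} {ξ : B} {q : E2} (h : ((x, ξ), q) ∈ SA P) :
    P.Aq (g • x) (g • ξ) q = P.Aq x ξ q := H790.Aq_smul g h.2.1 h.1

theorem Aq_smul_ev (g : Γ) {x : X} {ξ : B} {q : E2} (h : ((x, ξ), q) ∈ SA P) :
    P.Aq (g • x) (g • ξ) =ᶠ[𝓝 q] P.Aq x ξ := by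
  filter_upwards [(isOpen_slice (isOpen_SA P) (x, ξ)).mem_nhds h] with w hw using Aq_smul g hw

theorem Hn_smul (g : Γ) {x : X} {ξ : B} {q : E2} (h : ((x, ξ), q) ∈ SA P) :
    Hn P (g • x) (g • ξ) q = Hn P x ξ q := by
  unfold Hn
  rw [H790.Th_smul g h.1]
  refine Pic.hess_congr ?_
  filter_upwards [(isOpen_slice P.Af.isOpen_dT x).mem_nhds h.1] with t ht
  rw [Pic.Sq, Pic.Sq, P.bq_smul g ht, P.bq_smul g ht]

/-! ### the smooth part of the tensor -/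

variable (P) in
/-- the smooth part of the tensor of the foreign leaf -/
def Rf (x : X) (ξ : B) (q : E2) : E2 →L[ℝ] E2 :=
  fderiv ℝ (P.Af.cu (L.hol ξ x)) (sq P x ξ q) ∘L P.Bu.Rb x (L.hol ξ x) (P.dsc x q) ∘L
    ContinuousLinearMap.adjoint (fderiv ℝ (P.Af.cu (L.hol ξ x)) (sq P x ξ q))

variable (P) in
theorem Rf_jc : JC (fun (p : X × B) q => Rf P p.1 p.2 q) (SA P) := by
  have h1 : JC (fun (p : X × B) q => fderiv ℝ (P.Af.cu (L.hol p.2 p.1)) (sq P p.1 p.2 q))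
      (SA P) := (cu_hol_jc P).fderiv.comp' (sq_jc P) fun p hp => ⟨hp.2.1, (sq_spec hp).1⟩
  have h2 : JC (fun (p : X × B) q => P.Bu.Rb p.1 (L.hol p.2 p.1) (P.dsc p.1 q)) (SA P) :=
    (Rbu_jc P).comp' (dsc_jcA P) fun _ hp => hp.2
  exact h1.clm_comp (h2.clm_comp (adjoint_jc h1))

theorem Rf_eq {x : X} {ξ : B} {q : E2} (h : ((x, ξ), q) ∈ SA P) :
    Rf P x ξ q = P.Na (L.hol ξ x) (P.Aq x ξ q) - P.Bu.c₀ • (fderiv ℝ (P.Aq x ξ) q ∘L
      Ring.inverse (Hn P x ξ q) ∘L ContinuousLinearMap.adjoint (fderiv ℝ (P.Aq x ξ) q)) := by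
  rw [lnk h, add_sub_cancel_left]
  rfl

theorem Rf_smul (g : Γ) {x : X} {ξ : B} {q : E2} (h : ((x, ξ), q) ∈ SA P) :
    Rf P (g • x) (g • ξ) q = Rf P x ξ q := by
  have h0 : (L.hol ξ x, P.Aq x ξ q) ∈ P.Af.dT := by
    rw [Aq_eq h]
    exact P.Af.dT_cu _ (sq_spec h).1
  rw [Rf_eq (SA_smul g h), Rf_eq h, Aq_smul g h, (Aq_smul_ev g h).fderiv_eq, Hn_smul g h,
    L.hol_smul g ξ x h.2.1, P.Na_smul g h0]

/-- the derivative of `Aq` is invertible -/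
theorem fderiv_Aq_inv {x : X} {ξ : B} {q : E2} (h : ((x, ξ), q) ∈ SA P) :
    (fderiv ℝ (P.Aq x ξ) q).IsInvertible := by
  have h1 := (Aq_hasFDerivAt h).fderiv
  have hnu : P.Bu.nu x (L.em (L.hol ξ x)) (P.dsc x q) ≠ 0 := by
    rw [L.hol_em ξ x h.2.1]
    exact h.2.2.2.2
  obtain ⟨e1, he1⟩ := P.Af.der_inv (L.hol ξ x) _ (sq_spec h).1
  obtain ⟨e2, he2⟩ := P.Bu.sg_inv x (L.hol ξ x) (P.dsc x q) (SU_sgD h.2) hnu
  obtain ⟨e3, he3⟩ := P.Af.der_dsc_inv h.1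
  refine ⟨e3.trans (e2.trans e1), ?_⟩
  rw [h1]
  have he1' : (e1 : E2 →L[ℝ] E2) = fderiv ℝ (P.Af.cu (L.hol ξ x)) (sq P x ξ q) := he1
  have he2' : (e2 : E2 →L[ℝ] E2) = fderiv ℝ (sgu P x ξ) (P.dsc x q) := he2
  have he3' : (e3 : E2 →L[ℝ] E2) = fderiv ℝ (P.dsc x) q := he3
  rw [← he1', ← he2', ← he3']
  rfl

variable (P) in
/-- the correction -/
def Bf (x : X) (ξ : B) (q : E2) : E2 →L[ℝ] E2 :=
  P.Rl x q - (fderiv ℝ (P.Aq x ξ) q).inverse ∘L Rf P x ξ q ∘L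
    ContinuousLinearMap.adjoint ((fderiv ℝ (P.Aq x ξ) q).inverse)

variable (P) in
theorem DAq_jc : JC (fun (p : X × B) q => fderiv ℝ (P.Aq p.1 p.2) q) (SA P) := (Aq_jc P).fderiv

variable (P) in
theorem Rl_jcA : JC (fun (p : X × B) q => P.Rl p.1 q) (SA P) :=
  (P.Rl_jc.pullback (continuous_fst : Continuous fun p : X × B => p.1)).mono (isOpen_SA P)
    fun _ hp => hp.1

variable (P) in
theorem Bf_jc : JC (fun (p : X × B) q => Bf P p.1 p.2 q) (SA P) := by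
  have h1 : JC (fun (p : X × B) q => (fderiv ℝ (P.Aq p.1 p.2) q).inverse) (SA P) :=
    (DAq_jc P).inverse fun p hp => fderiv_Aq_inv (x := p.1.1) (ξ := p.1.2) hp
  exact (Rl_jcA P).sub (h1.clm_comp ((Rf_jc P).clm_comp (adjoint_jc h1)))

theorem Rl_eq {x : X} {q : E2} (h : (x, q) ∈ P.Af.dT) :
    P.Rl x q = P.Na x q - P.Bu.c₀ • P.N0 x q := by
  rw [P.Na_eq x h, add_sub_cancel_left]

theorem Bf_smul (g : Γ) {x : X} {ξ : B} {q : E2} (h : ((x, ξ), q) ∈ SA P) :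
    Bf P (g • x) (g • ξ) q = Bf P x ξ q := by
  unfold Bf
  rw [Rf_smul g h, (Aq_smul_ev g h).fderiv_eq, Rl_eq (P.Af.dT_smul g h.1), Rl_eq h.1,
    P.Na_smul g h.1, P.N0_smul g h.1]

/-! ### the inverse Hessian -/

variable (P) in
theorem Hu_cont : ContinuousOn (fun p : (X × B) × E2 => Hu P p.1.1 p.1.2 p.2) (SU P) := by
  have h0 : ContinuousOn (fun p : (X × B) × E2 => hess (P.Bu.be p.1.1 p.1.2) p.2)
      (univ ×ˢ ball 0 3) := (hess_jc P.Bu.be_jc).continuousOn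
  have hen : ContinuousOn (fun p : (X × B) × E2 => P.Bu.en p.1.1 p.1.2 p.2) (SU P) :=
    P.Bu.en_cont.mono fun p hp => ⟨mem_univ _, hp.2.1⟩
  have h1 : ContinuousOn (fun p : (X × B) × E2 =>
      (((p.1.1, P.Bu.en p.1.1 p.1.2 p.2), p.2) : (X × B) × E2)) (SU P) := by
    have e1 : ContinuousOn (fun p : (X × B) × E2 => p.1.1) (SU P) := by fun_prop
    have e2 : ContinuousOn (fun p : (X × B) × E2 => p.2) (SU P) := by fun_prop
    exact (e1.prodMk hen).prodMk e2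
  refine (h0.mono fun p hp => ⟨mem_univ _, hp.2.1⟩).add ?_
  exact h0.comp h1 fun p hp => ⟨mem_univ _, hp.2.1⟩

variable (P) in
theorem Hn_inv_cont : ContinuousOn (fun p : (X × B) × E2 => Ring.inverse (Hn P p.1.1 p.1.2 p.2))
    (SA P) := by
  have h1 : ContinuousOn (fun p : (X × B) × E2 => Ring.inverse (Hu P p.1.1 p.1.2 p.2))
      (SU P) := by
    intro p hp
    obtain ⟨u, hu⟩ := Hu_unit (x := p.1.1) (ξ := p.1.2) (u := p.2) hp
    have h2 : ContinuousAt (Ring.inverse : (E2 →L[ℝ] E2) → (E2 →L[ℝ] E2))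
        (Hu P p.1.1 p.1.2 p.2) := by
      rw [← hu]
      exact NormedRing.inverse_continuousAt u
    exact ContinuousAt.comp_continuousWithinAt
      (f := fun p : (X × B) × E2 => Hu P p.1.1 p.1.2 p.2) h2 (Hu_cont P p hp)
  have h2 : ContinuousOn (fun p : (X × B) × E2 => ((p.1, P.dsc p.1.1 p.2) : (X × B) × E2))
      (SA P) := continuousOn_fst.prodMk (dsc_jcA P).continuousOn
  have h3 := h1.comp h2 fun p hp => hp.2
  have h4 : JC (fun (p : X × B) q => fderiv ℝ (P.Af.cu p.1) (P.dsc p.1 q)) (SA P) :=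
    (P.Af.cu_jc.pullback (continuous_fst : Continuous fun p : X × B => p.1)).fderiv.comp'
      (dsc_jcA P) fun p hp => ⟨mem_univ _, hp.2.2.1⟩
  have h5 := h4.continuousOn
  have h6 := (adjoint_jc h4).continuousOn
  refine (h5.clm_comp (h3.clm_comp h6)).congr ?_
  rintro ⟨⟨x, ξ⟩, q⟩ hp
  exact Hn_inverse hp

theorem Hn_inv_smul (g : Γ) {x : X} {ξ : B} {q : E2} (h : ((x, ξ), q) ∈ SA P) :
    Ring.inverse (Hn P (g • x) (g • ξ) q) = Ring.inverse (Hn P x ξ q) := by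
  rw [Hn_smul g h]

theorem Hn_isInv {x : X} {ξ : B} {q : E2} (h : ((x, ξ), q) ∈ SA P) :
    (Hn P x ξ q).IsInvertible := by
  refine H547.isInvertible_of_pos fun v hv => ?_
  rw [Hn_eq h]
  show 0 < inner ℝ (ContinuousLinearMap.adjoint (fderiv ℝ (P.dsc x) q)
    (Hu P x ξ (P.dsc x q) (fderiv ℝ (P.dsc x) q v))) v
  rw [ContinuousLinearMap.adjoint_inner_left]
  refine P.Bu.pos x ξ (P.dsc x q) h.2.2.1 h.2.2.2.2 (fderiv ℝ (P.dsc x) q v) fun h0 => hv ?_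
  have h1 := P.Af.der_cu_dsc h.1
  have h2 := DFunLike.congr_fun h1 v
  simp only [ContinuousLinearMap.comp_apply, ContinuousLinearMap.id_apply] at h2
  have h3 : fderiv ℝ (P.Af.dsc x) q v = 0 := h0
  rw [h3, map_zero] at h2
  exact h2.symm

/-- the Hessian as a sum -/
theorem Hn_sum {x : X} {ξ : B} {q : E2} (h : ((x, ξ), q) ∈ SA P) :
    Hn P x ξ q = hess (P.bq x ξ) q + hess (P.bq x (P.Th x ξ q)) q :=
  P.hess_Sq x _ _ h.1

/-! ### the uniform constants -/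

variable (P) in
/-- the close pairs: domain -/
theorem exists_dom : ∃ ε > 0, (∀ x ξ, Nc P ε x ξ → ∀ q ∈ closedBall (0 : E2) 1,
    ((x, ξ), q) ∈ SA P) ∧
    ∀ x ξ, Nc P ε x ξ → ∀ q ∈ closedBall (0 : E2) (3 / 4), ‖P.Aq x ξ q‖ < 1 := by
  have hdT : ∀ x, ∀ q ∈ closedBall (0 : E2) 1, (x, q) ∈ P.Af.dT := fun x q hq =>
    P.Af.closedBall_dT x (closedBall_subset_closedBall (by norm_num) hq)
  have hrev : ∀ (g : Γ) {x : X} {ξ : B} {q : E2}, ((g • x, g • ξ), q) ∈ SA P →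
      ((x, ξ), q) ∈ SA P := by
    intro g x ξ q h
    have := SA_smul g⁻¹ h
    rwa [inv_smul_smul, inv_smul_smul] at this
  obtain ⟨ε1, h1, H1⟩ := nc_open (P := P) (Q := fun x ξ q => ((x, ξ), q) ∈ SA P) (r := 1)
    (fun g x ξ q _ h => hrev g h)
    (fun x q hq => (isOpen_SA P).mem_nhds (SA_em P x (hdT x q hq)))
  obtain ⟨ε2, h2, H2⟩ := nc_open (P := P)
    (Q := fun x ξ q => ((x, ξ), q) ∈ SA P ∧ ‖P.Aq x ξ q‖ < 1) (r := 3 / 4)
    (fun g x ξ q _ h => ⟨hrev g h.1, by rw [← Aq_smul g (hrev g h.1)]; exact h.2⟩) (by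
      intro x q hq
      have hq1 : q ∈ closedBall (0 : E2) 1 := closedBall_subset_closedBall (by norm_num) hq
      have hS := SA_em P x (hdT x q hq1)
      have hc : ContinuousAt (fun p : (X × B) × E2 => P.Aq p.1.1 p.1.2 p.2) ((x, L.em x), q) :=
        (Aq_jc P).continuousOn.continuousAt ((isOpen_SA P).mem_nhds hS)
      have hlt : ‖P.Aq x (L.em x) q‖ < 1 := by
        rw [Aq_em x (hdT x q hq1)]
        rw [mem_closedBall, dist_zero_right] at hq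
        linarith
      have hS' : ∀ᶠ p : (X × B) × E2 in 𝓝 ((x, L.em x), q), p ∈ SA P :=
        (isOpen_SA P).mem_nhds hS
      exact hS'.and (hc.norm.eventually_lt continuousAt_const hlt))
  refine ⟨min ε1 ε2, lt_min h1 h2, fun x ξ h q hq => H1 x ξ (h.mono (min_le_left _ _)) q hq,
    fun x ξ h q hq => (H2 x ξ (h.mono (min_le_right _ _)) q hq).2⟩

variable (P) in
/-- **the uniform constants** -/
theorem exists_const {ε : ℝ} (hε : ∀ x ξ, Nc P ε x ξ → ∀ q ∈ closedBall (0 : E2) 1,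
    ((x, ξ), q) ∈ SA P) : ∃ (MA MR MB : ℕ → ℝ) (MI MH : ℝ),
    (∀ k x ξ, Nc P ε x ξ → ∀ q ∈ closedBall (0 : E2) 1,
      ‖iteratedFDeriv ℝ k (P.Aq x ξ) q‖ ≤ MA k) ∧
    (∀ k x ξ, Nc P ε x ξ → ∀ q ∈ closedBall (0 : E2) 1,
      ‖iteratedFDeriv ℝ k (Rf P x ξ) q‖ ≤ MR k) ∧
    (∀ k x ξ, Nc P ε x ξ → ∀ q ∈ closedBall (0 : E2) 1,
      ‖iteratedFDeriv ℝ k (Bf P x ξ) q‖ ≤ MB k) ∧
    (∀ x ξ, Nc P ε x ξ → ∀ q ∈ closedBall (0 : E2) 1, ‖Ring.inverse (Hn P x ξ q)‖ ≤ MI) ∧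
    (∀ x ζ, ∀ q ∈ closedBall (0 : E2) 1, ‖fderiv ℝ (hess (P.bq x ζ)) q‖ ≤ MH) := by
  have a1 := fun k => nc_jc (P := P) (r := 1) (Aq_jc P) hε (fun g x ξ q h => Aq_smul g h) k
  have a2 := fun k => nc_jc (P := P) (r := 1) (Rf_jc P) hε (fun g x ξ q h => Rf_smul g h) k
  have a3 := fun k => nc_jc (P := P) (r := 1) (Bf_jc P) hε (fun g x ξ q h => Bf_smul g h) k
  choose MA hMA using a1
  choose MR hMR using a2
  choose MB hMB using a3
  obtain ⟨MI, hMI⟩ := nc_bound (P := P) (r := 1) (Hn_inv_cont P) hε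
    (fun g x ξ q h => Hn_inv_smul g h)
  obtain ⟨MH, hMH⟩ := Leaf.bndB L (hess_jc P.bq_jc) (fun g x ξ q h => Pic.hess_congr (by
      filter_upwards [(isOpen_slice P.Af.isOpen_dT x).mem_nhds h] with t ht using
        P.bq_smul g ht ξ)) (isCompact_closedBall (0 : E2) 1)
    (fun x ξ q hq => P.Af.closedBall_dT x (closedBall_subset_closedBall (by norm_num) hq)) 1
  refine ⟨MA, MR, MB, MI, MH, hMA, hMR, hMB, hMI, fun x ζ q hq => ?_⟩
  rw [← norm_iteratedFDeriv_one]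
  exact hMH x ζ q hq

end Vale.Agent.P207.N4.V.H340
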