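import Vale.Agent.P207.N4.Dim
import Vale.Agent.P207.N5.H340.Fam
import Vale.Agent.P207.N5.H751.SB2
import Vale.Agent.P207.H340.SInvG

/-!
# P207, line N5, row S-INV: the discs of `x` and of `hol ξ x` are close
-/

open Set Filter Topology Metric MeasureTheory
open scoped ContDiff

set_option maxSynthPendingDepth 3

noncomputable section

namespace Vale.Agent.P207.N4.V.H340

open Vale.Agent.P207.N3 Vale.Agent.P207.N4.H709 Vale.Agent.P207.H751 Vale.Agent.P207.H340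
open Vale.Agent.P207.H686 Vale.Agent.P207.N4.H751 Vale.Agent.P207.N4.V.H751

variable [Dim]

/-! ### the action on forms -/

/-- the action on the forms `Fm E2` -/
def actF : Act E2 (Fm E2) := (actForms E2 : Act E2 (E2 →L[ℝ] E2 →L[ℝ] ℝ))

theorem actF_pull (g : E2 →L[ℝ] E2) (s : Fm E2) : actF.pull g s = pb g s := by
  refine Fm.ext fun x y => ?_
  rw [pb_apply]
  exact actForms_pull g (s.f) x y

theorem actF_push (g : E2 ≃L[ℝ] E2) : actF.push g = act g := by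
  refine ContinuousLinearEquiv.ext (funext fun s => ?_)
  rw [Act.push_apply, actF_pull]
  exact Fm.ext fun x y => by rw [act_apply, pb_apply]; rfl

/-- the orthonormal basis -/
abbrev bs : OrthonormalBasis (Fin Dim.m) ℝ E2 := EuclideanSpace.basisFun (Fin Dim.m) ℝ

/-- equivariance of the pairing -/
theorem prL_conj {A : E2 →L[ℝ] E2} (hA : A.IsInvertible) (N : E2 →L[ℝ] E2) (s : Fm E2) :
    prL bs (A ∘L N ∘L ContinuousLinearMap.adjoint A) s = prL bs N (pb A s) := by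
  obtain ⟨e, rfl⟩ := hA
  have h := prL_act bs e N ((act e).symm s)
  rw [(act e).apply_symm_apply] at h
  exact h

/-! ### estimates -/

theorem conj_sub {A A' N N' : E2 →L[ℝ] E2} {a n t d : ℝ} (hA : ‖A‖ ≤ a) (hA' : ‖A'‖ ≤ a)
    (hN : ‖N‖ ≤ n) (hN' : ‖N'‖ ≤ n) (hAA : ‖A - A'‖ ≤ t) (hNN : ‖N - N'‖ ≤ d) :
    ‖A ∘L N ∘L ContinuousLinearMap.adjoint A - A' ∘L N' ∘L ContinuousLinearMap.adjoint A'‖ ≤
      2 * (a * n * t) + a ^ 2 * d := by
  have ha : 0 ≤ a := (norm_nonneg _).trans hA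
  have hn : 0 ≤ n := (norm_nonneg _).trans hN
  have ht : 0 ≤ t := (norm_nonneg _).trans hAA
  have hd : 0 ≤ d := (norm_nonneg _).trans hNN
  have e : A ∘L N ∘L ContinuousLinearMap.adjoint A - A' ∘L N' ∘L ContinuousLinearMap.adjoint A' =
      (A - A') ∘L N ∘L ContinuousLinearMap.adjoint A + A' ∘L (N - N') ∘L
        ContinuousLinearMap.adjoint A + A' ∘L N' ∘L ContinuousLinearMap.adjoint (A - A') := by
    rw [map_sub]
    ext1 v
    simp
  have na : ∀ T : E2 →L[ℝ] E2, ‖ContinuousLinearMap.adjoint T‖ = ‖T‖ := fun T =>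
    LinearIsometryEquiv.norm_map _ T
  have op : ∀ R S T : E2 →L[ℝ] E2, ‖R ∘L S ∘L ContinuousLinearMap.adjoint T‖ ≤
      ‖R‖ * ‖S‖ * ‖T‖ := by
    intro R S T
    calc ‖R ∘L S ∘L ContinuousLinearMap.adjoint T‖
        ≤ ‖R‖ * (‖S‖ * ‖ContinuousLinearMap.adjoint T‖) :=
          (ContinuousLinearMap.opNorm_comp_le _ _).trans
            (mul_le_mul_of_nonneg_left (ContinuousLinearMap.opNorm_comp_le _ _) (norm_nonneg _))
      _ = ‖R‖ * ‖S‖ * ‖T‖ := by rw [na, mul_assoc]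
  rw [e]
  calc _ ≤ ‖(A - A') ∘L N ∘L ContinuousLinearMap.adjoint A‖ + ‖A' ∘L (N - N') ∘L
        ContinuousLinearMap.adjoint A‖ + ‖A' ∘L N' ∘L ContinuousLinearMap.adjoint (A - A')‖ :=
        (norm_add_le _ _).trans (add_le_add_left (norm_add_le _ _) _)
    _ ≤ t * n * a + a * d * a + a * n * t := by
        refine add_le_add (add_le_add ?_ ?_) ?_
        · exact (op _ _ _).trans (by gcongr)
        · exact (op _ _ _).trans (by gcongr)
        · exact (op _ _ _).trans (by gcongr)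
    _ = 2 * (a * n * t) + a ^ 2 * d := by ring

theorem inv_sub {H H' : E2 →L[ℝ] E2} (h : H.IsInvertible) (h' : H'.IsInvertible) {m d : ℝ}
    (hm : ‖Ring.inverse H‖ ≤ m) (hm' : ‖Ring.inverse H'‖ ≤ m) (hd : ‖H - H'‖ ≤ d) :
    ‖Ring.inverse H - Ring.inverse H'‖ ≤ m ^ 2 * d := by
  have hm0 : 0 ≤ m := (norm_nonneg _).trans hm
  have hd0 : 0 ≤ d := (norm_nonneg _).trans hd
  have e : Ring.inverse H - Ring.inverse H' =
      Ring.inverse H ∘L (H' - H) ∘L Ring.inverse H' := by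
    ext1 v
    have h1 := H547.apply_inverse h' v
    have h2 := H547.inverse_apply h (Ring.inverse H' v)
    simp only [ContinuousLinearMap.comp_apply, sub_apply, map_sub, h1, h2]
  rw [e]
  calc _ ≤ ‖Ring.inverse H‖ * (‖H' - H‖ * ‖Ring.inverse H'‖) :=
        (ContinuousLinearMap.opNorm_comp_le _ _).trans
          (mul_le_mul_of_nonneg_left (ContinuousLinearMap.opNorm_comp_le _ _) (norm_nonneg _))
    _ ≤ m * (d * m) := by
        rw [norm_sub_rev H' H]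
        gcongr
    _ = m ^ 2 * d := by ring

variable {Γ X B : Type} [Group Γ] [MetricSpace X] [ProperSpace X] [MulAction Γ X]
  [IsIsometricSMul Γ X] [TopologicalSpace B] [CompactSpace B] [T2Space B] [MulAction Γ B]
  [ContinuousConstSMul Γ B] {L : Leaf Γ X B} [MeasurableSpace B] [BorelSpace B] {V : Type}
  [NormedAddCommGroup V] [NormedSpace ℝ V] [FiniteDimensional ℝ V] {P : Pic L V}

/-- Lipschitz bounds on the unit ball -/
theorem lip_ball {G : Type} [NormedAddCommGroup G] [NormedSpace ℝ G] {F : E2 → G} {M : ℝ}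
    (hd : ∀ q ∈ closedBall (0 : E2) 1, DifferentiableAt ℝ F q)
    (hM : ∀ q ∈ closedBall (0 : E2) 1, ‖fderiv ℝ F q‖ ≤ M) {q q' : E2}
    (hq : q ∈ closedBall (0 : E2) 1) (hq' : q' ∈ closedBall (0 : E2) 1) :
    ‖F q' - F q‖ ≤ M * ‖q' - q‖ :=
  (convex_closedBall (0 : E2) 1).norm_image_sub_le_of_norm_fderiv_le hd hM hq hq'

theorem norm_hess_le {f : E2 → ℝ} {q : E2} (hf : ContDiffAt ℝ 2 f q) :
    ‖hess f q‖ ≤ ‖iteratedFDeriv ℝ 2 f q‖ := by
  have hd : DifferentiableAt ℝ (fderiv ℝ f) q :=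
    (hf.fderiv_right (m := 1) (by norm_num)).differentiableAt (by norm_num)
  have h2 : HasFDerivAt (gradient f) (rz ∘L fderiv ℝ (fderiv ℝ f) q) q := by
    rw [gradient_eq_rz]
    exact rz.hasFDerivAt.comp q hd.hasFDerivAt
  have h3 : ‖hess f q‖ ≤ ‖fderiv ℝ (fderiv ℝ f) q‖ := by
    unfold hess
    rw [h2.fderiv]
    refine ContinuousLinearMap.opNorm_le_bound _ (norm_nonneg _) fun v => ?_
    show ‖rz (fderiv ℝ (fderiv ℝ f) q v)‖ ≤ _
    rw [norm_rz]
    exact ContinuousLinearMap.le_opNorm _ _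
  refine h3.trans (le_of_eq ?_)
  rw [← norm_iteratedFDeriv_one, norm_iteratedFDeriv_fderiv]

/-- **the geometric estimate** at one pair of frames -/
theorem near_core {x : X} {ξ : B} {ε : ℝ} (hn : Nc P ε x ξ)
    (hdom : ∀ x ξ, Nc P ε x ξ → ∀ q ∈ closedBall (0 : E2) 1, ((x, ξ), q) ∈ SA P)
    {MA MR : ℕ → ℝ} {MI MH : ℝ}
    (hMA : ∀ k x ξ, Nc P ε x ξ → ∀ q ∈ closedBall (0 : E2) 1,
      ‖iteratedFDeriv ℝ k (P.Aq x ξ) q‖ ≤ MA k)
    (hMR : ∀ k x ξ, Nc P ε x ξ → ∀ q ∈ closedBall (0 : E2) 1,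
      ‖iteratedFDeriv ℝ k (Rf P x ξ) q‖ ≤ MR k)
    (hMI : ∀ x ξ, Nc P ε x ξ → ∀ q ∈ closedBall (0 : E2) 1, ‖Ring.inverse (Hn P x ξ q)‖ ≤ MI)
    (hMH : ∀ x ζ, ∀ q ∈ closedBall (0 : E2) 1, ‖fderiv ℝ (hess (P.bq x ζ)) q‖ ≤ MH)
    {w q : E2} (hw : w ∈ closedBall (0 : E2) 1) (hq : q ∈ closedBall (0 : E2) 1)
    (hT : P.Th x ξ q = P.Af.pt x w) {τ : ℝ} (hwq : ‖q - w‖ ≤ τ)
    (hdl : ‖hess (P.dl x ξ) q‖ ≤ τ) :
    ‖fderiv ℝ (P.Aq x ξ) w ∘L (P.Na x w - Bf P x ξ w) ∘L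
        ContinuousLinearMap.adjoint (fderiv ℝ (P.Aq x ξ) w) -
      P.Na (L.hol ξ x) (P.Aq x ξ q)‖ ≤
      (P.Bu.c₀ * (2 * (MA 1 * MI * MA 2) + MA 1 ^ 2 * (MI ^ 2 * (2 * MH + 1))) + MR 1) * τ := by
  have hε : 0 ≤ ε := (norm_nonneg _).trans hn.2
  have hτ : 0 ≤ τ := (norm_nonneg _).trans hwq
  have hSq := hdom x ξ hn q hq
  have hSw := hdom x ξ hn w hw
  have hem : Nc P ε x (L.em x) := nc_em hε x
  have hSe := hdom x _ hem w hw
  have hdTw : (x, w) ∈ P.Af.dT := hSw.1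
  have hdTq : (x, q) ∈ P.Af.dT := hSq.1
  -- the Hessians
  have hH : ‖Hn P x (L.em x) w - Hn P x ξ q‖ ≤ (2 * MH + 1) * τ := by
    rw [Hn_sum hSe, Hn_sum hSq, P.Th_em x hdTw, hT]
    have hdlq : hess (P.dl x ξ) q = hess (P.bq x ξ) q - hess (P.bq x (L.em x)) q := by
      have h1 : gradient (P.dl x ξ) =ᶠ[𝓝 q]
          fun t => gradient (P.bq x ξ) t - gradient (P.bq x (L.em x)) t := by
        filter_upwards [(isOpen_slice P.Af.isOpen_dT x).mem_nhds hdTq] with t ht using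
          P.gr_eq_sub x ξ ht
      have d : ∀ ζ, DifferentiableAt ℝ (gradient (P.bq x ζ)) q := fun ζ =>
        (gradient_jc P.bq_jc).differentiableAt (p := ((x, ζ), q)) hdTq
      unfold hess
      rw [h1.fderiv_eq, fderiv_fun_sub (d _) (d _)]
    have hl : ∀ ζ, ‖hess (P.bq x ζ) w - hess (P.bq x ζ) q‖ ≤ MH * τ := by
      intro ζ
      have h1 := lip_ball (F := hess (P.bq x ζ)) (fun q hq =>
        (hess_jc P.bq_jc).differentiableAt (p := ((x, ζ), q))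
          (P.Af.closedBall_dT x (closedBall_subset_closedBall (by norm_num) hq)))
        (hMH x ζ) hq hw
      have hMH0 : 0 ≤ MH := (norm_nonneg _).trans (hMH x ζ q hq)
      refine h1.trans ?_
      rw [norm_sub_rev]
      exact mul_le_mul_of_nonneg_left hwq hMH0
    have e : hess (P.bq x (L.em x)) w + hess (P.bq x (P.Af.pt x w)) w -
        (hess (P.bq x ξ) q + hess (P.bq x (P.Af.pt x w)) q) =
        (hess (P.bq x (L.em x)) w - hess (P.bq x (L.em x)) q) +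
        (hess (P.bq x (P.Af.pt x w)) w - hess (P.bq x (P.Af.pt x w)) q) - hess (P.dl x ξ) q := by
      rw [hdlq]
      abel
    rw [e]
    calc _ ≤ ‖hess (P.bq x (L.em x)) w - hess (P.bq x (L.em x)) q‖ +
          ‖hess (P.bq x (P.Af.pt x w)) w - hess (P.bq x (P.Af.pt x w)) q‖ +
          ‖hess (P.dl x ξ) q‖ := (norm_sub_le _ _).trans (add_le_add_left (norm_add_le _ _) _)
      _ ≤ MH * τ + MH * τ + τ := add_le_add (add_le_add (hl _) (hl _)) hdl
      _ = (2 * MH + 1) * τ := by ring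
  have hI : ‖Ring.inverse (Hn P x (L.em x) w) - Ring.inverse (Hn P x ξ q)‖ ≤
      MI ^ 2 * ((2 * MH + 1) * τ) :=
    inv_sub (Hn_isInv hSe) (Hn_isInv hSq) (hMI x _ hem w hw) (hMI x ξ hn q hq) hH
  -- the derivative of `Aq`
  have hD1 : ∀ u ∈ closedBall (0 : E2) 1, ‖fderiv ℝ (P.Aq x ξ) u‖ ≤ MA 1 := fun u hu => by
    rw [← norm_iteratedFDeriv_one]
    exact hMA 1 x ξ hn u hu
  have hMA2 : 0 ≤ MA 2 := (norm_nonneg _).trans (hMA 2 x ξ hn w hw)
  have hD2 : ‖fderiv ℝ (P.Aq x ξ) w - fderiv ℝ (P.Aq x ξ) q‖ ≤ MA 2 * τ := by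
    have h1 := lip_ball (F := fderiv ℝ (P.Aq x ξ)) (M := MA 2) (fun u hu =>
      (DAq_jc P).differentiableAt (p := ((x, ξ), u)) (hdom x ξ hn u hu)) (fun u hu => by
        rw [← norm_iteratedFDeriv_one, norm_iteratedFDeriv_fderiv]
        exact hMA 2 x ξ hn u hu) hq hw
    refine h1.trans ?_
    rw [norm_sub_rev]
    exact mul_le_mul_of_nonneg_left hwq hMA2
  have hC := conj_sub (hD1 w hw) (hD1 q hq) (hMI x _ hem w hw) (hMI x ξ hn q hq) hD2 hI
  -- the smooth part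
  have hR : ‖Rf P x ξ w - Rf P x ξ q‖ ≤ MR 1 * τ := by
    have h1 := lip_ball (F := Rf P x ξ) (M := MR 1) (fun u hu =>
      (Rf_jc P).differentiableAt (p := ((x, ξ), u)) (hdom x ξ hn u hu)) (fun u hu => by
        rw [← norm_iteratedFDeriv_one]
        exact hMR 1 x ξ hn u hu) hq hw
    have hMR1 : 0 ≤ MR 1 := (norm_nonneg _).trans (hMR 1 x ξ hn w hw)
    refine h1.trans ?_
    rw [norm_sub_rev]
    exact mul_le_mul_of_nonneg_left hwq hMR1
  -- the identity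
  have hNaw : P.Na x w = P.Bu.c₀ • Ring.inverse (Hn P x (L.em x) w) + P.Rl x w := by
    rw [P.Na_eq x hdTw]
    congr 2
    rw [Pic.N0, Hn, P.Th_em x hdTw]
  have hNaq := lnk hSq
  have hRf : fderiv ℝ (P.Af.cu (L.hol ξ x)) (sq P x ξ q) ∘L P.Bu.Rb x (L.hol ξ x) (P.dsc x q) ∘L
      ContinuousLinearMap.adjoint (fderiv ℝ (P.Af.cu (L.hol ξ x)) (sq P x ξ q)) = Rf P x ξ q := rfl
  rw [hRf] at hNaq
  have hinv := fderiv_Aq_inv hSw
  set A := fderiv ℝ (P.Aq x ξ) w with hA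
  have hAA : A ∘L A.inverse = ContinuousLinearMap.id ℝ E2 := by
    obtain ⟨e, he⟩ := hinv
    rw [← he, ContinuousLinearMap.inverse_equiv]
    ext v
    simp
  have hAAt : ContinuousLinearMap.adjoint A.inverse ∘L ContinuousLinearMap.adjoint A =
      ContinuousLinearMap.id ℝ E2 := by
    rw [← ContinuousLinearMap.adjoint_comp, hAA, ContinuousLinearMap.adjoint_id]
  have hBf : A ∘L (P.Na x w - Bf P x ξ w) ∘L ContinuousLinearMap.adjoint A =
      P.Bu.c₀ • (A ∘L Ring.inverse (Hn P x (L.em x) w) ∘L ContinuousLinearMap.adjoint A) +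
        Rf P x ξ w := by
    unfold Bf
    rw [← hA, hNaw]
    have h1 := fun v => DFunLike.congr_fun hAA v
    have h2 := fun v => DFunLike.congr_fun hAAt v
    simp only [ContinuousLinearMap.comp_apply, ContinuousLinearMap.id_apply] at h1 h2
    ext1 v
    simp only [ContinuousLinearMap.comp_apply, add_apply, sub_apply, smul_apply, map_add, map_sub,
      map_smul, h1, h2]
    abel
  rw [hBf, hNaq]
  have e : P.Bu.c₀ • (A ∘L Ring.inverse (Hn P x (L.em x) w) ∘L ContinuousLinearMap.adjoint A) +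
        Rf P x ξ w - (P.Bu.c₀ • (fderiv ℝ (P.Aq x ξ) q ∘L Ring.inverse (Hn P x ξ q) ∘L
        ContinuousLinearMap.adjoint (fderiv ℝ (P.Aq x ξ) q)) + Rf P x ξ q) =
      P.Bu.c₀ • (A ∘L Ring.inverse (Hn P x (L.em x) w) ∘L ContinuousLinearMap.adjoint A -
        fderiv ℝ (P.Aq x ξ) q ∘L Ring.inverse (Hn P x ξ q) ∘L
        ContinuousLinearMap.adjoint (fderiv ℝ (P.Aq x ξ) q)) + (Rf P x ξ w - Rf P x ξ q) := by
    rw [smul_sub]
    abel
  rw [e]
  have hc0 := P.Bu.c₀_pos.le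
  calc _ ≤ P.Bu.c₀ * (2 * (MA 1 * MI * (MA 2 * τ)) + MA 1 ^ 2 * (MI ^ 2 * ((2 * MH + 1) * τ))) +
        MR 1 * τ := by
        refine (norm_add_le _ _).trans (add_le_add ?_ hR)
        rw [norm_smul, Real.norm_of_nonneg hc0]
        exact mul_le_mul_of_nonneg_left hC hc0
    _ = _ := by ring

end Vale.Agent.P207.N4.V.H340
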